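import Vale.Agent.P246.Main

universe u

open Set Topology ContinuousMap

namespace Vale.Agent.Results.P246.D2

theorem result : ∃ (X : Type) (_ : TopologicalSpace X) (_ : T2Space X)
    (_ : CWComplex (univ : Set X)),
    RelCWComplex.Finite (univ : Set X) ∧ ConnectedSpace X ∧ Vale.Agent.P246.D2 X ∧
    ∀ (Y : Type u) [TopologicalSpace Y] [T2Space Y] [CWComplex (univ : Set Y)],
      (∀ n, 2 < n → IsEmpty (RelCWComplex.cell (univ : Set Y) n)) → IsEmpty (X ≃ₕ Y) :=
  Vale.Agent.P246.main

end Vale.Agent.Results.P246.D2
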